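import Vale.Agent.P181.R2.H151.MDefs
import Vale.Agent.P181.R2.H572.NMix

/-!
P181, three rows: row W2 (`psi_zero`), the form `F (z ^ 2 ∏_{l ≠ i, j} p_l ; P, …, P)`.
-/

set_option autoImplicit false

open MvPolynomial

namespace Vale.Agent.P181.TM

open Vale.Agent.P181 Vale.Agent.P181.H536 Vale.Agent.P181.H280 Vale.Agent.P181.TN

/-- A form on the diagonal of a line is a polynomial of degree at most the number of slots. -/
lemma uni_exists {n : ℕ} (A B : Sn n) : ∀ (k : ℕ) (G : Fm n k),
    ∃ q : Polynomial ℂ, q.natDegree ≤ k ∧ ∀ u : ℂ, q.eval u = G (fun _ => A + u • B) := by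
  intro k
  induction k with
  | zero =>
    intro G
    refine ⟨Polynomial.C (G (fun _ => A)), by rw [Polynomial.natDegree_C], ?_⟩
    intro u
    rw [Polynomial.eval_C]
    congr 1
    exact Subsingleton.elim _ _
  | succ k ih =>
    intro G
    obtain ⟨q₁, h₁, e₁⟩ := ih (G.curryLeft A)
    obtain ⟨q₂, h₂, e₂⟩ := ih (G.curryLeft B)
    refine ⟨q₁ + Polynomial.X * q₂, ?_, ?_⟩
    · refine (Polynomial.natDegree_add_le _ _).trans (max_le (by omega) ?_)
      refine (Polynomial.natDegree_mul_le).trans ?_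
      rw [Polynomial.natDegree_X]
      omega
    · intro u
      rw [← curryLeft_const, map_add, map_smul, _root_.add_apply, _root_.smul_apply, ← e₁, ← e₂,
        Polynomial.eval_add, Polynomial.eval_mul, Polynomial.eval_X, smul_eq_mul]

lemma z2_mem : (X 2 : Sn 1) ∈ ZZ 1 := Submodule.subset_span ⟨0, rfl⟩

lemma z2_mem_linS : (X 2 : Sn 1) ∈ linS (1 + 2) := X_mem_linS _

/-- The first order identity. -/
lemma first_order {k b : ℕ} (F : Fm 1 (k + 1)) (hsy : IsSymm F) (hK : IsK (linS (1 + 2)) b F)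
    (p : Fin b → Sn 1) (hp : ∀ l, p l ∈ linS (1 + 2)) (i j : Fin b) (hij : i ≠ j)
    (ξ z : Sn 1) (hξ : ξ ∈ linS (1 + 2)) (hpi : p i = ξ + z) :
    F.curryLeft (z ^ 2 * ∏ l ∈ (Finset.univ.erase i).erase j, p l) (fun _ => ∏ l, p l) =
      F.curryLeft (ξ ^ 2 * ∏ l ∈ (Finset.univ.erase i).erase j, p l) (fun _ => ∏ l, p l) := by
  classical
  set T := (Finset.univ.erase i).erase j with hT
  have hjm : j ∈ (Finset.univ.erase i : Finset (Fin b)) :=
    Finset.mem_erase.2 ⟨hij.symm, Finset.mem_univ j⟩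
  have hcard : T.card + 2 = b := by
    have h1 : T.card = b - 1 - 1 := by
      rw [hT, Finset.card_erase_of_mem hjm, Finset.card_erase_of_mem (Finset.mem_univ i),
        Finset.card_univ, Fintype.card_fin]
    have h2 : 2 ≤ b := by
      have h3 := i.isLt
      have h4 := j.isLt
      have h5 : (i : ℕ) ≠ (j : ℕ) := fun h => hij (Fin.ext h)
      omega
    omega
  have hprod : ∏ l, p l = p j * (p i * ∏ l ∈ T, p l) := by
    rw [← Finset.mul_prod_erase Finset.univ p (Finset.mem_univ i),
      ← Finset.mul_prod_erase (Finset.univ.erase i) p hjm, ← hT]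
    ring
  have h1 := DD_one hsy hK {p i - 2 • ξ} {p j} (p i ::ₘ T.val.map p) (by simp) (by simp)
    (by rw [Multiset.card_cons, Multiset.card_map]; change 1 + (T.card + 1) = b; omega)
    (by
      intro y hy
      rw [Multiset.mem_singleton] at hy
      rw [hy]
      exact Submodule.sub_mem _ (hp i) (Submodule.smul_of_tower_mem _ 2 hξ))
    (by
      intro y hy
      rw [Multiset.mem_singleton] at hy
      rw [hy]
      exact hp j)
    (by
      intro y hy
      rcases Multiset.mem_cons.1 hy with rfl | hy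
      · exact hp i
      · obtain ⟨l, -, rfl⟩ := Multiset.mem_map.1 hy
        exact hp l)
  rw [Multiset.prod_singleton, Multiset.prod_singleton, Multiset.prod_cons] at h1
  change F.curryLeft ((p i - 2 • ξ) * (p i * ∏ l ∈ T, p l)) (fun _ => p j * (p i * ∏ l ∈ T, p l)) = 0
    at h1
  rw [← hprod] at h1
  have h2 : z ^ 2 * ∏ l ∈ T, p l =
      ξ ^ 2 * ∏ l ∈ T, p l + (p i - 2 • ξ) * (p i * ∏ l ∈ T, p l) := by
    have hz : z = p i - ξ := by rw [hpi]; ring
    rw [hz]
    simp only [two_nsmul]
    ring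
  rw [h2, map_add, _root_.add_apply, h1, add_zero]

/-- The chart lines. -/
noncomputable def pl {b : ℕ} (x : Fin b → ℂ) (j : Fin b) (η : Fin b → ℂ) (l : Fin b) : Sn 1 :=
  ln 1 (x l) + ((x l - x j) * η l) • X 2

section Pl

variable {k b t s e : ℕ} (x : Fin b → ℂ) (i j : Fin b)

lemma pl_mem (η : Fin b → ℂ) (l : Fin b) : pl x j η l ∈ linS (1 + 2) :=
  line_mem ((ZZ 1).smul_mem _ z2_mem) _

lemma pl_self (η : Fin b → ℂ) : pl x j η j = ln 1 (x j) := by
  rw [pl, sub_self, zero_mul, zero_smul, add_zero]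

lemma pl_congr {η η' : Fin b → ℂ} {l : Fin b} (h : η l = η' l) : pl x j η l = pl x j η' l := by
  rw [pl, pl, h]

lemma pl_scale (η : Fin b → ℂ) (u : ℂ) (l : Fin b) :
    scal 1 u (pl x j η l) = pl x j (fun q => u * η q) l := by
  rw [pl, pl, map_add, scal_ln, map_smul, scal_Z z2_mem, smul_smul]
  congr 2
  ring

lemma pl_shear (η : Fin b → ℂ) (ε : ℂ) (l : Fin b) :
    shr 1 ((-(ε * x j)) • X 2) (ε • X 2) (pl x j η l) = pl x j (fun q => η q + ε) l := by
  rw [pl, pl, map_add, shr_ln, map_smul, shr_Z z2_mem, smul_smul, add_assoc, ← add_smul,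
    ← add_smul]
  congr 2
  ring

/-- The lines after scaling one variable. -/
lemma pl_line (c : Fin b → ℂ) (l : Fin b) (u : ℂ) :
    pl x j (fun q => if q ∈ ({l} : Finset (Fin b)) then u * c q else c q) l =
      ln 1 (x l) + u • (((x l - x j) * c l) • X 2) := by
  rw [pl, smul_smul]
  simp only [Finset.mem_singleton, if_true]
  congr 2
  ring

lemma pl_ne (c : Fin b → ℂ) {l l' : Fin b} (h : l' ≠ l) (u : ℂ) :
    pl x j (fun q => if q ∈ ({l} : Finset (Fin b)) then u * c q else c q) l' = pl x j c l' := by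
  apply pl_congr
  rw [if_neg (by rwa [Finset.mem_singleton])]

lemma erase_card {i j : Fin b} (hij : i ≠ j) : ((Finset.univ.erase i).erase j).card + 2 = b := by
  have hjm : j ∈ (Finset.univ.erase i : Finset (Fin b)) :=
    Finset.mem_erase.2 ⟨hij.symm, Finset.mem_univ j⟩
  have h1 : ((Finset.univ.erase i).erase j).card = b - 1 - 1 := by
    rw [Finset.card_erase_of_mem hjm, Finset.card_erase_of_mem (Finset.mem_univ i),
      Finset.card_univ, Fintype.card_fin]
  have h2 : 2 ≤ b := by
    have h3 := i.isLt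
    have h4 := j.isLt
    have h5 : (i : ℕ) ≠ (j : ℕ) := fun h => hij (Fin.ext h)
    omega
  omega

/-- The first argument. -/
noncomputable def wl {b : ℕ} (x : Fin b → ℂ) (i j : Fin b) (η : Fin b → ℂ) : Sn 1 :=
  X 2 ^ 2 * ∏ l ∈ (Finset.univ.erase i).erase j, pl x j η l

/-- The other arguments. -/
noncomputable def ql {b : ℕ} (x : Fin b → ℂ) (j : Fin b) (η : Fin b → ℂ) : Sn 1 :=
  ∏ l, pl x j η l

lemma ql_mem (η : Fin b → ℂ) : ql x j η ∈ linS (1 + 2) ^ b := by
  have h1 := H240.prod_mem_pow_card (linS (1 + 2)) (Finset.univ : Finset (Fin b))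
    (fun l => pl x j η l) (fun l => pl_mem x j η l)
  rwa [Finset.card_univ, Fintype.card_fin] at h1

lemma wl_mem {i j : Fin b} (hij : i ≠ j) (η : Fin b → ℂ) : wl x i j η ∈ linS (1 + 2) ^ b := by
  have hc := erase_card hij
  have h2 := H240.prod_mem_pow_card (linS (1 + 2)) ((Finset.univ.erase i).erase j)
    (fun l => pl x j η l) (fun l => pl_mem x j η l)
  have h1 : linS (1 + 2) ^ b =
      linS (1 + 2) ^ 2 * linS (1 + 2) ^ ((Finset.univ.erase i).erase j).card := by
    rw [← pow_add]; congr 1; omega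
  rw [h1]
  exact Submodule.mul_mem_mul (Submodule.pow_mem_pow _ z2_mem_linS 2) h2

lemma cons_mem {i j : Fin b} (hij : i ≠ j) (η : Fin b → ℂ) :
    Dg b (Fin.cons (wl x i j η) (fun _ => ql x j η) : Fin (k + 1) → Sn 1) := by
  intro i'
  refine Fin.cases ?_ (fun i' => ?_) i'
  · rw [Fin.cons_zero]; exact wl_mem x hij η
  · rw [Fin.cons_succ]; exact ql_mem x j η

lemma exists_G (F : Fm 1 (k + 1)) : ∃ G : MvPolynomial (Fin b) ℂ, ∀ η,
    eval η G = F.curryLeft (wl x i j η) (fun _ => ql x j η) := by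
  obtain ⟨G, hG, -⟩ := mv_exists (σ := Fin b) F
    (Fin.cons (C (X 2 ^ 2) * ∏ l ∈ (Finset.univ.erase i).erase j,
        (C (ln 1 (x l)) + X l * C ((x l - x j) • (X 2 : Sn 1))))
      (fun _ => ∏ l, (C (ln 1 (x l)) + X l * C ((x l - x j) • (X 2 : Sn 1)))))
  have hev : ∀ (η : Fin b → ℂ) (l : Fin b),
      evA η (C (ln 1 (x l)) + X l * C ((x l - x j) • (X 2 : Sn 1))) = pl x j η l := by
    intro η l
    rw [map_add, evA_C, map_mul, evA_X, evA_C, ← Algebra.smul_def, smul_smul, mul_comm, pl]
  refine ⟨G, fun η => ?_⟩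
  rw [hG, MultilinearMap.curryLeft_apply]
  congr 1
  funext i'
  refine Fin.cases ?_ (fun i' => ?_) i'
  · rw [Fin.cons_zero, Fin.cons_zero, map_mul, evA_C, map_prod, wl]
    congr 1
    exact Finset.prod_congr rfl fun l _ => hev η l
  · rw [Fin.cons_succ, Fin.cons_succ, map_prod, ql]
    exact Finset.prod_congr rfl fun l _ => hev η l

/-- The variable `j` does not occur. -/
lemma deg_j (F : Fm 1 (k + 1)) (G : MvPolynomial (Fin b) ℂ)
    (hG : ∀ η, eval η G = F.curryLeft (wl x i j η) (fun _ => ql x j η)) (c : Fin b → ℂ) :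
    ∃ p : Polynomial ℂ, p.natDegree ≤ 0 ∧ ∀ u, p.eval u =
      eval (fun q => if q ∈ ({j} : Finset (Fin b)) then u * c q else c q) G := by
  refine ⟨Polynomial.C (eval c G), by rw [Polynomial.natDegree_C], ?_⟩
  intro u
  have h1 : pl x j (fun q => if q ∈ ({j} : Finset (Fin b)) then u * c q else c q) = pl x j c := by
    funext q
    by_cases hq : q = j
    · rw [hq, pl_self, pl_self]
    · exact pl_ne x j c hq u
  rw [Polynomial.eval_C, hG, hG, wl, wl, ql, ql, h1]

/-- The variables other than `i`, `j`. -/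
lemma deg_l (hs : 1 ≤ s) {F : Fm 1 (k + 1)} (hQ : QQ s b F) (G : MvPolynomial (Fin b) ℂ)
    (hG : ∀ η, eval η G = F.curryLeft (wl x i j η) (fun _ => ql x j η)) (hij : i ≠ j)
    {l : Fin b} (hl : l ∈ (Finset.univ.erase i).erase j) (c : Fin b → ℂ) :
    ∃ p : Polynomial ℂ, p.natDegree ≤ s - 1 ∧ ∀ u, p.eval u =
      eval (fun q => if q ∈ ({l} : Finset (Fin b)) then u * c q else c q) G := by
  have hc := erase_card hij
  have hpos : 0 < ((Finset.univ.erase i).erase j).card := Finset.card_pos.2 ⟨l, hl⟩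
  obtain ⟨P, hPd, hPe⟩ := hQ (x l) (((x l - x j) * c l) • X 2)
    ((ZZ 1).smul_mem _ z2_mem)
    (Fin.cons (X 2 ^ 2 * ∏ l' ∈ ((Finset.univ.erase i).erase j).erase l, pl x j c l')
      (fun _ => ∏ l' ∈ Finset.univ.erase l, pl x j c l')) (by
      intro i'
      refine Fin.cases ?_ (fun i' => ?_) i'
      · rw [Fin.cons_zero]
        have h1 := H240.prod_mem_pow_card (linS (1 + 2)) (((Finset.univ.erase i).erase j).erase l)
          (fun l => pl x j c l) (fun l => pl_mem x j c l)
        rw [Finset.card_erase_of_mem hl] at h1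
        have h2 : linS (1 + 2) ^ (b - 1) = linS (1 + 2) ^ 2 *
            linS (1 + 2) ^ (((Finset.univ.erase i).erase j).card - 1) := by
          rw [← pow_add]; congr 1; omega
        rw [h2]
        exact Submodule.mul_mem_mul (Submodule.pow_mem_pow _ z2_mem_linS 2) h1
      · rw [Fin.cons_succ]
        have h1 := H240.prod_mem_pow_card (linS (1 + 2)) (Finset.univ.erase l)
          (fun l => pl x j c l) (fun l => pl_mem x j c l)
        rwa [Finset.card_erase_of_mem (Finset.mem_univ l), Finset.card_univ,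
          Fintype.card_fin] at h1)
  refine ⟨P, ?_, ?_⟩
  · by_cases hp0 : P = 0
    · rw [hp0]; simp
    · rw [Polynomial.degree_eq_natDegree hp0] at hPd
      have : P.natDegree < s := by exact_mod_cast hPd
      omega
  · intro u
    rw [hPe, hG, MultilinearMap.curryLeft_apply]
    congr 1
    funext i'
    refine Fin.cases ?_ (fun i' => ?_) i'
    · rw [Fin.cons_zero, Fin.cons_zero, wl, ← Finset.mul_prod_erase _ _ hl, pl_line,
        Finset.prod_congr rfl fun l' hl' => pl_ne x j c (Finset.ne_of_mem_erase hl') u]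
      ring
    · rw [Fin.cons_succ, Fin.cons_succ, ql,
        ← Finset.mul_prod_erase Finset.univ _ (Finset.mem_univ l), pl_line,
        Finset.prod_congr rfl fun l' hl' => pl_ne x j c (Finset.ne_of_mem_erase hl') u]

/-- Restriction of a polynomial to a line. -/
lemma exists_uni (G : MvPolynomial (Fin b) ℂ) (l : Fin b) (c : Fin b → ℂ) :
    ∃ p : Polynomial ℂ, ∀ u, p.eval u =
      eval (fun q => if q ∈ ({l} : Finset (Fin b)) then u * c q else c q) G := by
  refine ⟨aeval (fun q => if q ∈ ({l} : Finset (Fin b)) then Polynomial.X * Polynomial.C (c q)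
      else Polynomial.C (c q)) G, ?_⟩
  intro u
  have h1 : (Polynomial.evalRingHom u) (aeval (fun q => if q ∈ ({l} : Finset (Fin b)) then
      Polynomial.X * Polynomial.C (c q) else Polynomial.C (c q)) G) =
      eval (fun q => if q ∈ ({l} : Finset (Fin b)) then u * c q else c q) G := by
    rw [map_aeval]
    have h2 : (Polynomial.evalRingHom u).comp (algebraMap ℂ (Polynomial ℂ)) = RingHom.id ℂ := by
      ext r
      simp
    rw [h2]
    show eval₂Hom (RingHom.id ℂ) _ G = eval₂Hom (RingHom.id ℂ) _ G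
    congr 2
    funext q
    by_cases hq : q ∈ ({l} : Finset (Fin b))
    · simp only [if_pos hq]
      rw [Polynomial.coe_evalRingHom, Polynomial.eval_mul, Polynomial.eval_X, Polynomial.eval_C]
    · simp only [if_neg hq]
      simp
  exact h1

/-- The variable `i`. -/
lemma deg_i (hke : k ≤ e + 2) {F : Fm 1 (k + 1)} (hsy : IsSymm F) (hK : IsK (linS (1 + 2)) b F)
    (G : MvPolynomial (Fin b) ℂ)
    (hG : ∀ η, eval η G = F.curryLeft (wl x i j η) (fun _ => ql x j η)) (hij : i ≠ j)
    (hxij : x i ≠ x j) (c : Fin b → ℂ) :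
    ∃ p : Polynomial ℂ, p.natDegree ≤ e ∧ ∀ u, p.eval u =
      eval (fun q => if q ∈ ({i} : Finset (Fin b)) then u * c q else c q) G := by
  obtain ⟨p, hp⟩ := exists_uni G i c
  refine ⟨p, ?_, hp⟩
  by_cases hγ0 : (x i - x j) * c i = 0
  · have hc0 : c i = 0 := by
      rcases mul_eq_zero.1 hγ0 with h | h
      · exact absurd (sub_eq_zero.1 h) hxij
      · exact h
    have h1 : p = Polynomial.C (eval c G) := by
      apply Polynomial.funext
      intro u
      rw [hp, Polynomial.eval_C]
      congr 1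
      congr 1
      funext q
      by_cases hq : q ∈ ({i} : Finset (Fin b))
      · rw [if_pos hq, Finset.mem_singleton.1 hq, hc0, mul_zero]
      · rw [if_neg hq]
    rw [h1, Polynomial.natDegree_C]
    exact Nat.zero_le _
  · obtain ⟨q, hq, hqe⟩ := uni_exists (ln 1 (x i) * ∏ l' ∈ Finset.univ.erase i, pl x j c l')
      (((x i - x j) * c i) • (X 2 : Sn 1) * ∏ l' ∈ Finset.univ.erase i, pl x j c l') k
      (F.curryLeft (ln 1 (x i) ^ 2 * ∏ l' ∈ (Finset.univ.erase i).erase j, pl x j c l'))
    have hkey : Polynomial.C (((x i - x j) * c i) ^ 2) * (Polynomial.X ^ 2 * p) = q := by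
      apply Polynomial.funext
      intro u
      rw [Polynomial.eval_mul, Polynomial.eval_mul, Polynomial.eval_pow,
        Polynomial.eval_X, Polynomial.eval_C, hp, hqe, hG]
      have h1 := first_order F hsy hK
        (pl x j (fun q => if q ∈ ({i} : Finset (Fin b)) then u * c q else c q))
        (pl_mem x j _) i j hij (ln 1 (x i)) (u • (((x i - x j) * c i) • X 2)) (ln_mem _)
        (pl_line x j c i u)
      have hT1 : ∏ l' ∈ (Finset.univ.erase i).erase j,
          pl x j (fun q => if q ∈ ({i} : Finset (Fin b)) then u * c q else c q) l' =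
          ∏ l' ∈ (Finset.univ.erase i).erase j, pl x j c l' :=
        Finset.prod_congr rfl fun l' hl' =>
          pl_ne x j c (Finset.ne_of_mem_erase (Finset.mem_of_mem_erase hl')) u
      have hU1 : ∏ l', pl x j (fun q => if q ∈ ({i} : Finset (Fin b)) then u * c q else c q) l' =
          ln 1 (x i) * (∏ l' ∈ Finset.univ.erase i, pl x j c l') +
          u • (((x i - x j) * c i) • (X 2 : Sn 1) *
            ∏ l' ∈ Finset.univ.erase i, pl x j c l') := by
        rw [← Finset.mul_prod_erase Finset.univ _ (Finset.mem_univ i), pl_line,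
          Finset.prod_congr rfl fun l' hl' => pl_ne x j c (Finset.ne_of_mem_erase hl') u,
          add_mul, ← smul_mul_assoc]
      rw [hT1, hU1] at h1
      rw [wl, ql, hT1, hU1, ← h1]
      have h2 : (u • (((x i - x j) * c i) • (X 2 : Sn 1))) ^ 2 *
          ∏ l' ∈ (Finset.univ.erase i).erase j, pl x j c l' =
          (((x i - x j) * c i) ^ 2 * u ^ 2) •
            (X 2 ^ 2 * ∏ l' ∈ (Finset.univ.erase i).erase j, pl x j c l') := by
        rw [smul_pow, smul_pow, smul_smul, smul_mul_assoc, mul_comm (u ^ 2)]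
      rw [h2, map_smul, _root_.smul_apply, smul_eq_mul]
      ring
    by_cases h0 : p = 0
    · rw [h0, Polynomial.natDegree_zero]
      exact Nat.zero_le _
    · have h1 : (Polynomial.C (((x i - x j) * c i) ^ 2) * (Polynomial.X ^ 2 * p)).natDegree =
          2 + p.natDegree := by
        rw [Polynomial.natDegree_C_mul (pow_ne_zero _ hγ0),
          Polynomial.natDegree_mul (pow_ne_zero _ Polynomial.X_ne_zero) h0,
          Polynomial.natDegree_X_pow]
      rw [hkey] at h1
      omega

end Pl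

theorem psi_zero0 {k b t s e : ℕ} (hs : 1 ≤ s) (hke : k ≤ e + 2)
    (hnum : (b - 2) * (s - 1) + e + 4 < 2 * t)
    (F : Fm 1 (k + 1)) (hsy : IsSymm F) (hI : Inv2 b F) (hH : Hom b t F)
    (hK : IsK (linS (1 + 2)) b F) (hQ : QQ s b F)
    (x : Fin b → ℂ) (i j : Fin b) (hij : i ≠ j) (hxij : x i ≠ x j) (η : Fin b → ℂ) :
    F.curryLeft (wl x i j η) (fun _ => ql x j η) = 0 := by
  have ht2 : 2 ≤ t := by omega
  have hcard := erase_card hij
  have hjm : j ∈ (Finset.univ.erase i : Finset (Fin b)) :=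
    Finset.mem_erase.2 ⟨hij.symm, Finset.mem_univ j⟩
  obtain ⟨G, hG⟩ := exists_G x i j F
  have hhom : ∀ m ∈ G.support, ∑ q, m q = t - 2 := by
    apply R2.H572.Mix.sum_of_scaling
    intro c u hu
    have h1 := hH u hu _ (cons_mem (k := k) x hij c)
    have h2 : (fun i' => scal 1 u ((Fin.cons (wl x i j c) (fun _ => ql x j c) :
        Fin (k + 1) → Sn 1) i')) =
        Fin.cons (u ^ 2 • wl x i j (fun q => u * c q)) (fun _ => ql x j (fun q => u * c q)) := by
      funext i'
      refine Fin.cases ?_ (fun i' => ?_) i'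
      · rw [Fin.cons_zero, Fin.cons_zero, wl, wl, map_mul, map_pow, scal_Z z2_mem, map_prod,
          smul_pow, smul_mul_assoc, Finset.prod_congr rfl fun l _ => pl_scale x j c u l]
      · rw [Fin.cons_succ, Fin.cons_succ, ql, ql, map_prod,
          Finset.prod_congr rfl fun l _ => pl_scale x j c u l]
    rw [h2] at h1
    have h3 : F (Fin.cons (u ^ 2 • wl x i j (fun q => u * c q))
        (fun _ => ql x j (fun q => u * c q))) =
        F.curryLeft (u ^ 2 • wl x i j (fun q => u * c q))
          (fun _ => ql x j (fun q => u * c q)) := rfl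
    have h3' : F (Fin.cons (wl x i j c) (fun _ => ql x j c)) =
        F.curryLeft (wl x i j c) (fun _ => ql x j c) := rfl
    rw [h3, h3', map_smul, _root_.smul_apply, smul_eq_mul, ← hG (fun q => u * c q),
      ← hG c] at h1
    have h4 : u ^ t = u ^ 2 * u ^ (t - 2) := by rw [← pow_add]; congr 1; omega
    rw [h4, mul_assoc] at h1
    exact mul_left_cancel₀ (pow_ne_zero _ hu) h1
  have hG0 : G = 0 := by
    apply R2.H572.Blk.sl2_block (id : Fin b → Fin b) (id : Fin b → Fin b) (fun _ => rfl)
      (fun l => if l = j then 0 else if l = i then e else s - 1) (t := t - 2) (l := t - 2) G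
    · -- degrees
      intro m hm l
      have hconv : ∑ i' with id i' = l, m i' = ∑ q ∈ ({l} : Finset (Fin b)), m q := by
        rw [Finset.sum_singleton]
        have h1 : (Finset.univ.filter fun i' : Fin b => id i' = l) = {l} := by
          ext q
          simp
        rw [h1, Finset.sum_singleton]
      rw [hconv]
      refine R2.H572.Mix.deg_le_of_scaling _ G _ ?_ m hm
      intro c
      by_cases hlj : l = j
      · rw [hlj, if_pos rfl]
        exact deg_j x i j F G hG c
      · rw [if_neg hlj]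
        by_cases hli : l = i
        · rw [hli, if_pos rfl]
          exact deg_i x i j hke hsy hK G hG hij hxij c
        · rw [if_neg hli]
          exact deg_l x i j hs hQ G hG hij
            (Finset.mem_erase.2 ⟨hlj, Finset.mem_erase.2 ⟨hli, Finset.mem_univ l⟩⟩) c
    · exact hhom
    · exact hhom
    · -- invariance
      intro ε c
      have h1 := hI _ ((ZZ 1).smul_mem (-(ε * x j)) z2_mem) _ ((ZZ 1).smul_mem ε z2_mem) _
        (cons_mem (k := k) x hij c)
      have h2 : (fun i' => shr 1 ((-(ε * x j)) • X 2) (ε • X 2)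
          ((Fin.cons (wl x i j c) (fun _ => ql x j c) : Fin (k + 1) → Sn 1) i')) =
          Fin.cons (wl x i j (fun q => c q + ε)) (fun _ => ql x j (fun q => c q + ε)) := by
        funext i'
        refine Fin.cases ?_ (fun i' => ?_) i'
        · rw [Fin.cons_zero, Fin.cons_zero, wl, wl, map_mul, map_pow, shr_Z z2_mem, map_prod,
            Finset.prod_congr rfl fun l _ => pl_shear x j c ε l]
        · rw [Fin.cons_succ, Fin.cons_succ, ql, ql, map_prod,
            Finset.prod_congr rfl fun l _ => pl_shear x j c ε l]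
      rw [h2] at h1
      have h3 : (fun i' : Fin b => if i' = id (id i') then c i' + ε else c i') =
          fun q => c q + ε := by
        funext q
        exact if_pos rfl
      rw [h3, hG, hG]
      exact h1
    · have h1 : ∑ l : Fin b, (if l = j then 0 else if l = i then e else s - 1) =
          e + (b - 2) * (s - 1) := by
        rw [← Finset.add_sum_erase Finset.univ _ (Finset.mem_univ i),
          ← Finset.add_sum_erase (Finset.univ.erase i) _ hjm, if_neg hij, if_pos rfl, if_pos rfl,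
          zero_add, Finset.sum_congr rfl (g := fun _ => s - 1), Finset.sum_const, smul_eq_mul]
        · congr 2
          omega
        intro l hl
        rw [if_neg (Finset.ne_of_mem_erase hl),
          if_neg (Finset.ne_of_mem_erase (Finset.mem_of_mem_erase hl))]
      rw [h1]
      omega
  have hfin := hG η
  rw [hG0, map_zero] at hfin
  exact hfin.symm

/-- **Row W2.** -/
theorem psi_zero {k b t s e : ℕ} (hb : 2 ≤ b) (hs : 1 ≤ s) (hke : k ≤ e + 2)
    (hnum : (b - 2) * (s - 1) + e + 4 < 2 * t)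
    (F : Fm 1 (k + 1)) (hsy : IsSymm F) (hI : Inv2 b F) (hH : Hom b t F)
    (hK : IsK (linS (1 + 2)) b F) (hQ : QQ s b F)
    (x : Fin b → ℂ) (hx : Function.Injective x) (ζ : Fin b → ℂ) (i j : Fin b) (hij : i ≠ j) :
    F.curryLeft (X 2 ^ 2 * ∏ l ∈ (Finset.univ.erase i).erase j, (ln 1 (x l) + ζ l • X 2))
      (fun _ => ∏ l, (ln 1 (x l) + ζ l • X 2)) = 0 := by
  classical
  set T := (Finset.univ.erase i).erase j with hT
  have hjm : j ∈ (Finset.univ.erase i : Finset (Fin b)) :=
    Finset.mem_erase.2 ⟨hij.symm, Finset.mem_univ j⟩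
  have hcard : T.card = b - 2 := by
    rw [hT, Finset.card_erase_of_mem hjm, Finset.card_erase_of_mem (Finset.mem_univ i),
      Finset.card_univ, Fintype.card_fin]
    omega
  have hpm : ∀ l, ln 1 (x l) + ζ l • X 2 ∈ linS (1 + 2) := fun l =>
    line_mem ((ZZ 1).smul_mem _ z2_mem) _
  have hcm : Dg b (Fin.cons (X 2 ^ 2 * ∏ l ∈ T, (ln 1 (x l) + ζ l • X 2))
      (fun _ => ∏ l, (ln 1 (x l) + ζ l • X 2)) : Fin (k + 1) → Sn 1) := by
    intro i'
    refine Fin.cases ?_ (fun i' => ?_) i'
    · rw [Fin.cons_zero]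
      have h1 := H240.prod_mem_pow_card (linS (1 + 2)) T (fun l => ln 1 (x l) + ζ l • X 2)
        (fun l => hpm l)
      rw [hcard] at h1
      have h2 : linS (1 + 2) ^ b = linS (1 + 2) ^ 2 * linS (1 + 2) ^ (b - 2) := by
        rw [← pow_add]; congr 1; omega
      rw [h2]
      exact Submodule.mul_mem_mul (Submodule.pow_mem_pow _ z2_mem_linS 2) h1
    · rw [Fin.cons_succ]
      have h1 := H240.prod_mem_pow_card (linS (1 + 2)) (Finset.univ : Finset (Fin b))
        (fun l => ln 1 (x l) + ζ l • X 2) (fun l => hpm l)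
      rwa [Finset.card_univ, Fintype.card_fin] at h1
  have h0 := psi_zero0 hs hke hnum F hsy hI hH hK hQ x i j hij (fun h => hij (hx h))
    (fun l => (ζ l - ζ j) / (x l - x j))
  rw [wl, ql, ← hT] at h0
  have hsh : ∀ l, shr 1 ((-ζ j) • X 2) ((0 : ℂ) • X 2) (ln 1 (x l) + ζ l • X 2) =
      pl x j (fun l => (ζ l - ζ j) / (x l - x j)) l := by
    intro l
    rw [pl]
    have h1 : (x l - x j) * ((ζ l - ζ j) / (x l - x j)) = ζ l - ζ j := by
      by_cases hl : l = j
      · rw [hl, sub_self, sub_self, zero_mul]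
      · have h2 : x l - x j ≠ 0 := sub_ne_zero.2 fun h => hl (hx h)
        field_simp
    rw [h1, map_add, shr_ln, map_smul, shr_Z z2_mem, zero_smul, smul_zero, add_zero, add_assoc,
      ← add_smul]
    congr 2
    ring
  have h1 := hI _ ((ZZ 1).smul_mem (-ζ j) z2_mem) _ ((ZZ 1).smul_mem (0 : ℂ) z2_mem) _ hcm
  have h2 : (fun i' => shr 1 ((-ζ j) • X 2) ((0 : ℂ) • X 2)
      ((Fin.cons (X 2 ^ 2 * ∏ l ∈ T, (ln 1 (x l) + ζ l • X 2))
        (fun _ => ∏ l, (ln 1 (x l) + ζ l • X 2)) : Fin (k + 1) → Sn 1) i')) =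
      Fin.cons (X 2 ^ 2 * ∏ l ∈ T, pl x j (fun l => (ζ l - ζ j) / (x l - x j)) l)
        (fun _ => ∏ l, pl x j (fun l => (ζ l - ζ j) / (x l - x j)) l) := by
    funext i'
    refine Fin.cases ?_ (fun i' => ?_) i'
    · rw [Fin.cons_zero, Fin.cons_zero, map_mul, map_pow, shr_Z z2_mem, map_prod,
        Finset.prod_congr rfl fun l _ => hsh l]
    · rw [Fin.cons_succ, Fin.cons_succ, map_prod, Finset.prod_congr rfl fun l _ => hsh l]
  rw [h2] at h1
  rw [MultilinearMap.curryLeft_apply, ← h1]
  exact h0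

end Vale.Agent.P181.TM
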